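import Vale.Agent.Lib.P062b.TopNear4

/-!
Maker wins the Snaky game unless Breaker answers Maker's first cell at one of the 4 cells
that share a side with it.
-/

namespace Vale.Agent.Results.P062.NearFour

open Vale.Agent.Lib.P062 Vale.Agent.Lib.P062b.TopNear4

/-- After Maker's first cell at the origin, Maker forces a win against every first reply `y`
of Breaker other than the 4 cells that share a side with the origin. -/
theorem result : ∀ y : Cell, y ≠ (0, 0) →
    ¬ (|y.1| + |y.2| = 1) → MakerForces {(0, 0)} {y} := by
  intro y _ hy
  apply reply_all
  intro hn
  apply hy
  have h : ∀ z ∈ near, |z.1| + |z.2| = 1 := by decide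
  exact h y hn

end Vale.Agent.Results.P062.NearFour
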