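import Vale.Agent.Lib.P062b.TopNear4
import Vale.Agent.Lib.P062b.FiveChain

/-!
The Snaky game on the empty plane is reduced to one explicit position with six cells on each side:
if Maker wins that position, Maker wins the game with no handicap.
-/

namespace Vale.Agent.Results.P062.OnePosition

open Vale.Agent.Lib.P062 Vale.Agent.Lib.P062b Vale.Agent.Lib.P062b.TopNear4
  Vale.Agent.Lib.P062b.FiveChain

theorem reply_side (h : MakerForces {(0, 0)} {(1, 0)}) (y : Cell) : MakerForces {(0, 0)} {y} := by
  by_cases hy : y ∈ near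
  · have h1 : y = (-1, 0) ∨ y = (0, -1) ∨ y = (0, 1) ∨ y = (1, 0) := by
      simpa [near] using hy
    rcases h1 with rfl | rfl | rfl | rfl
    · exact reply_via (s₁ := -1) (s₂ := 1) (sw := false) (Or.inr rfl) (Or.inl rfl) h (by decide)
    · exact reply_via (s₁ := 1) (s₂ := -1) (sw := true) (Or.inl rfl) (Or.inr rfl) h (by decide)
    · exact reply_via (s₁ := 1) (s₂ := 1) (sw := true) (Or.inl rfl) (Or.inl rfl) h (by decide)
    · exact h
  · exact reply_all y hy

/-- If Maker, to move, wins the position with Maker on the six cells `(0,0)`, `(0,1)`, `(-3,0)`,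
`(-3,1)`, `(-3,-2)`, `(0,-1)` and Breaker on the six cells `(1,0)`, `(0,2)`, `(-2,0)`, `(-3,2)`,
`(-3,-1)`, `(0,-2)`, then Maker wins the Snaky game from the empty board, with no handicap. -/
theorem result (h : MakerForces {(0, 0), (0, 1), (-3, 0), (-3, 1), (-3, -2), (0, -1)}
      {(1, 0), (0, 2), (-2, 0), (-3, 2), (-3, -1), (0, -2)}) :
    MakerForces ∅ ∅ := by
  have e0 : cellsL [264] = {(0, 0)} := by decide +kernel
  have e1 : cellsL [265] = {(1, 0)} := by decide +kernel
  have eM : cellsL [241, 215, 284, 261, 287, 264] =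
      {(0, 0), (0, 1), (-3, 0), (-3, 1), (-3, -2), (0, -1)} := by
    decide +kernel
  have eB : cellsL [218, 238, 307, 262, 310, 265] =
      {(1, 0), (0, 2), (-2, 0), (-3, 2), (-3, -1), (0, -2)} := by
    decide +kernel
  have h' : MakerForces (cellsL [241, 215, 284, 261, 287, 264])
      (cellsL [218, 238, 307, 262, 310, 265]) := by
    rw [eM, eB]
    exact h
  have h0 := step0 (step1 (step2 (step3 (step4 h'))))
  rw [e0, e1] at h0
  refine MakerForces.move (0, 0) (by simp) (by simp) ?_
  intro y _ _
  simpa using reply_side h0 y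

end Vale.Agent.Results.P062.OnePosition
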